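import Vale.Agent.Lib.P331.LogRank
import Vale.Agent.Lib.P331.Sparse

/-!
# P331: one sample against the almighty adversary

(1) every finite matroid of rank at most `2 ^ L`: ratio `1 / (L + 4)`;
(2) every independence family with the `α`-partition property: ratio `1 / (2 α)`;
(3) graphic matroids of finite multigraphs: ratio `1 / 4`;
(4) transversal matroids in which every element has at most `k` neighbours: ratio `1 / (2 k)`;
(5) linear matroids of matrices with at most `k` non zero entries per column: ratio `1 / (2 k)`.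
-/

open scoped NNReal

namespace Vale.Agent.Results.P331.AllClasses

open Vale.Agent.Lib.P331

theorem result :
    (∀ (E : Type) [Fintype E] [DecidableEq E] (M : Matroid E) (L : ℕ), M.eRank ≤ 2 ^ L →
      HasRule (fun I : Finset E => M.Indep (I : Set E)) ((L : ℝ≥0) + 4)⁻¹) ∧
    (∀ (E : Type) [Fintype E] [DecidableEq E] (Indep : Finset E → Prop) (α : ℝ≥0)
      (Ω₀ κ : Type) [Fintype Ω₀] [Fintype κ] [DecidableEq κ] (p : Ω₀ → ℝ≥0)
      (cls : Ω₀ → E → Option κ), 0 < α → PartitionProperty Indep α Ω₀ κ p cls →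
        HasRule Indep (2 * α)⁻¹) ∧
    (∀ (E V : Type) [Fintype E] [DecidableEq E] [Fintype V] (ed : E → Sym2 V),
        HasRule (Forest ed) 4⁻¹) ∧
    (∀ (E W : Type) [Fintype E] [DecidableEq E] [Fintype W] (nb : E → Finset W) (k : ℕ),
        0 < k → (∀ e, (nb e).card ≤ k) → HasRule (Matchable nb) (2 * (k : ℝ≥0))⁻¹) ∧
    (∀ (E W F : Type) [Fintype E] [DecidableEq E] [Fintype W] [Field F] (A : W → E → F) (k : ℕ),
        0 < k → (∀ e, (csupp A e).card ≤ k) → HasRule (ColIndep A) (2 * (k : ℝ≥0))⁻¹) := by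
  have gen : ∀ (E : Type) [Fintype E] [DecidableEq E] (Indep : Finset E → Prop) (α : ℝ≥0)
      (Ω₀ κ : Type) [Fintype Ω₀] [Fintype κ] [DecidableEq κ] (p : Ω₀ → ℝ≥0)
      (cls : Ω₀ → E → Option κ), 0 < α → PartitionProperty Indep α Ω₀ κ p cls →
        HasRule Indep (2 * α)⁻¹ := by
    intro E _ _ Indep α Ω₀ κ _ _ _ p cls hα h
    letI : MeasurableSpace Ω₀ := ⊤
    haveI : DiscreteMeasurableSpace Ω₀ := ⟨fun _ => trivial⟩
    exact hasRule_of_partition hα h
  refine ⟨?_, gen, ?_, ?_, ?_⟩
  · intro E _ _ M L hL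
    exact hasRule_of_matroid M L hL
  · intro E V _ _ _ ed
    letI : LinearOrder V := LinearOrder.lift' (Fintype.equivFin V) (Equiv.injective _)
    have := gen E (Forest ed) 2 Bool V _ _ two_pos (graphic_partition ed)
    have h4 : ((2 : ℝ≥0) * 2)⁻¹ = 4⁻¹ := by norm_num
    rwa [h4] at this
  · intro E W _ _ _ nb k hk hdeg
    classical
    exact gen E (Matchable nb) k (Fin k) W _ _ (by exact_mod_cast hk)
      (transversal_partition nb k hk hdeg)
  · intro E W F _ _ _ _ A k hk hs
    classical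
    exact gen E (ColIndep A) k (W ≃ Fin (Fintype.card W)) W _ _ (by exact_mod_cast hk)
      (sparse_partition A k hk hs)

end Vale.Agent.Results.P331.AllClasses
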