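import Vale.Agent.Lib.P331.LogRank

/-!
# P331: every finite matroid of rank at most `2 ^ L` has a one-sample online rule that is
`1 / (L + 4)`-competitive against the almighty adversary
-/

open scoped NNReal

namespace Vale.Agent.Results.P331.LogRank

open Vale.Agent.Lib.P331

theorem result :
    ∀ (E : Type) [Fintype E] [DecidableEq E] (M : Matroid E) (L : ℕ), M.eRank ≤ 2 ^ L →
      HasRule (fun I : Finset E => M.Indep (I : Set E)) ((L : ℝ≥0) + 4)⁻¹ := by
  intro E _ _ M L hL
  exact hasRule_of_matroid M L hL

end Vale.Agent.Results.P331.LogRank
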