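import Vale.Agent.Lib.P331.Main
import Vale.Agent.Lib.P331.Graphic

/-!
# P331: one sample suffices against the almighty adversary for matroids with the partition property

(1) every independence family with the `α`-partition property has a feasible one-sample online
rule that is `1/(2α)`-competitive against the almighty adversary;
(2) partition matroids: `1/2`;  (3) graphic matroids of finite multigraphs: `1/4`.
-/

open scoped NNReal

namespace Vale.Agent.Results.P331.PartitionProperty

open Vale.Agent.Lib.P331

theorem result :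
    (∀ (E : Type) [Fintype E] [DecidableEq E] (Indep : Finset E → Prop) (α : ℝ≥0)
      (Ω₀ κ : Type) [Fintype Ω₀] [Fintype κ] [DecidableEq κ] (p : Ω₀ → ℝ≥0)
      (cls : Ω₀ → E → Option κ), 0 < α → PartitionProperty Indep α Ω₀ κ p cls →
        HasRule Indep (2 * α)⁻¹) ∧
    (∀ (E κ : Type) [Fintype E] [DecidableEq E] [Fintype κ] (part : E → κ),
        HasRule (PartIndep part) 2⁻¹) ∧
    (∀ (E V : Type) [Fintype E] [DecidableEq E] [Fintype V] (ed : E → Sym2 V),
        HasRule (Forest ed) 4⁻¹) := by
  have gen : ∀ (E : Type) [Fintype E] [DecidableEq E] (Indep : Finset E → Prop) (α : ℝ≥0)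
      (Ω₀ κ : Type) [Fintype Ω₀] [Fintype κ] [DecidableEq κ] (p : Ω₀ → ℝ≥0)
      (cls : Ω₀ → E → Option κ), 0 < α → PartitionProperty Indep α Ω₀ κ p cls →
        HasRule Indep (2 * α)⁻¹ := by
    intro E _ _ Indep α Ω₀ κ _ _ _ p cls hα h
    letI : MeasurableSpace Ω₀ := ⊤
    haveI : DiscreteMeasurableSpace Ω₀ := ⟨fun _ => trivial⟩
    exact hasRule_of_partition hα h
  refine ⟨gen, ?_, ?_⟩
  · intro E κ _ _ _ part
    classical
    have := gen E (PartIndep part) 1 Unit κ _ _ one_pos (partition_partition part)
    simpa using this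
  · intro E V _ _ _ ed
    letI : LinearOrder V := LinearOrder.lift' (Fintype.equivFin V) (Equiv.injective _)
    have := gen E (Forest ed) 2 Bool V _ _ two_pos (graphic_partition ed)
    have h4 : ((2 : ℝ≥0) * 2)⁻¹ = 4⁻¹ := by norm_num
    rwa [h4] at this

end Vale.Agent.Results.P331.PartitionProperty
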